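import Vale.Agent.Lib.P235.L1
import Vale.Agent.Lib.P235.Walk

/-!
# P235: extending an `ℓ₁` embedding from a vertex cover to the whole graph
-/

namespace Vale.Agent.Lib.P235

theorem IsL1.toFin {X : Type} {V : X → X → ℝ} (hV : IsL1 V) :
    ∃ (m : ℕ) (f : X → Fin m → ℝ), ∀ x y, V x y = ∑ k, |f x k - f y k| := by
  obtain ⟨ι, _, f, hf⟩ := hV
  refine ⟨Fintype.card ι, fun x k => f x ((Fintype.equivFin ι).symm k), fun x y => ?_⟩
  rw [hf x y]
  exact (Equiv.sum_comp (Fintype.equivFin ι).symm (fun i => |f x i - f y i|)).symm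

/-- the first step of a walk leaving a vertex outside the cover ends in the cover -/
theorem first_step {X : Type} [MetricSpace X] (G : SimpleGraph X) (ℓ : X → X → ℝ)
    (hd : ∀ x y, IsGLB (Set.range (fun p : G.Walk x y => walkLen ℓ p)) (dist x y))
    (S : Finset X) (hS : S.Nonempty) (hcover : ∀ x y, G.Adj x y → x ∈ S ∨ y ∈ S)
    (x y : X) (hxy : x ≠ y) (hx : x ∉ S) :
    ∃ v ∈ S, dist x v + dist v y ≤ dist x y := by
  obtain ⟨v0, hv0, hmin⟩ := Finset.exists_min_image S (fun v => dist x v + dist v y) hS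
  refine ⟨v0, hv0, ?_⟩
  apply (hd x y).2
  rintro _ ⟨p, rfl⟩
  show dist x v0 + dist v0 y ≤ walkLen ℓ p
  cases p with
  | nil => exact absurd rfl hxy
  | @cons _ v _ hadj q =>
    have h1 : dist x v ≤ ℓ x v := by
      have h := (hd x v).1 ⟨SimpleGraph.Walk.cons hadj SimpleGraph.Walk.nil, rfl⟩
      simpa [walkLen] using h
    have h2 : dist v y ≤ walkLen ℓ q := (hd v y).1 ⟨q, rfl⟩
    have h3 : walkLen ℓ (SimpleGraph.Walk.cons hadj q) = ℓ x v + walkLen ℓ q := rfl
    rw [h3]
    rcases hcover x v hadj with h | h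
    · exact absurd h hx
    · have := hmin v h
      linarith

theorem cover_reduction {X : Type} [Fintype X] [MetricSpace X] (G : SimpleGraph X)
    (ℓ : X → X → ℝ)
    (hd : ∀ x y, IsGLB (Set.range (fun p : G.Walk x y => walkLen ℓ p)) (dist x y))
    (S : Finset X) (hS : S.Nonempty) (hcover : ∀ x y, G.Adj x y → x ∈ S ∨ y ∈ S)
    (C : ℝ) (hC : 0 ≤ C) (m₀ : ℕ) (g : X → Fin m₀ → ℝ)
    (hg : ∀ a ∈ S, ∀ b ∈ S, dist a b ≤ ∑ k, |g a k - g b k| ∧
      ∑ k, |g a k - g b k| ≤ C * dist a b) :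
    ∃ (m : ℕ) (f : X → Fin m → ℝ), ∀ x y,
      dist x y ≤ ∑ k, |f x k - f y k| ∧ ∑ k, |f x k - f y k| ≤ (2 * C + 1) * dist x y := by
  classical
  have hn : ∀ x : X, ∃ v ∈ S, ∀ w ∈ S, dist x v ≤ dist x w := fun x =>
    Finset.exists_min_image S (fun v => dist x v) hS
  choose n hnS hnmin using hn
  have hV : IsL1 (fun x y => (∑ k, |g (n x) k - g (n y) k|)
      + (if x = y then 0 else dist x (n x) + dist y (n y))) :=
    IsL1.add ⟨Fin m₀, inferInstance, fun x => g (n x), fun _ _ => rfl⟩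
      (IsL1.priv (fun x => dist x (n x)) (fun _ => dist_nonneg))
  obtain ⟨m, f, hf⟩ := hV.toFin
  refine ⟨m, f, fun x y => ?_⟩
  rw [← hf x y]
  show dist x y ≤ (∑ k, |g (n x) k - g (n y) k|)
      + (if x = y then 0 else dist x (n x) + dist y (n y))
    ∧ (∑ k, |g (n x) k - g (n y) k|)
      + (if x = y then 0 else dist x (n x) + dist y (n y)) ≤ (2 * C + 1) * dist x y
  by_cases hxy : x = y
  · subst hxy
    simp
  rw [if_neg hxy]
  obtain ⟨hlo, hhi⟩ := hg (n x) (hnS x) (n y) (hnS y)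
  have hr : dist x (n x) + dist y (n y) ≤ dist x y := by
    by_cases hx : x ∈ S
    · have h1 : dist x (n x) ≤ dist x x := hnmin x x hx
      rw [dist_self] at h1
      have h2 : dist y (n y) ≤ dist y x := hnmin y x hx
      rw [dist_comm y x] at h2
      linarith
    · obtain ⟨v, hv, hle⟩ := first_step G ℓ hd S hS hcover x y hxy hx
      have h1 := hnmin x v hv
      have h2 := hnmin y v hv
      rw [dist_comm y v] at h2
      linarith
  constructor
  · have h1 := dist_triangle x (n x) y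
    have h2 := dist_triangle (n x) (n y) y
    rw [dist_comm (n y) y] at h2
    linarith
  · have h1 := dist_triangle (n x) x (n y)
    have h2 := dist_triangle x y (n y)
    rw [dist_comm (n x) x] at h1
    have h3 : dist (n x) (n y) ≤ 2 * dist x y := by linarith
    have h4 : C * dist (n x) (n y) ≤ C * (2 * dist x y) := mul_le_mul_of_nonneg_left h3 hC
    nlinarith

end Vale.Agent.Lib.P235
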