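import Vale.Agent.Lib.P235.Walk

/-!
# P235: the graph `K_{2,n}` with unit edge lengths and its shortest-path metric
-/

namespace Vale.Agent.Lib.P235

/-- the shortest-path distance of `K_{2,n}` on `Bool ⊕ Fin n` -/
noncomputable def kdist {n : ℕ} : Bool ⊕ Fin n → Bool ⊕ Fin n → ℝ
  | Sum.inl a, Sum.inl b => if a = b then 0 else 2
  | Sum.inr i, Sum.inr j => if i = j then 0 else 2
  | Sum.inl _, Sum.inr _ => 1
  | Sum.inr _, Sum.inl _ => 1

theorem kdist_self {n : ℕ} (x : Bool ⊕ Fin n) : kdist x x = 0 := by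
  rcases x with a | i <;> simp [kdist]

theorem kdist_comm {n : ℕ} (x y : Bool ⊕ Fin n) : kdist x y = kdist y x := by
  rcases x with a | i <;> rcases y with b | j <;> simp [kdist, eq_comm]

theorem kdist_triangle {n : ℕ} (x y z : Bool ⊕ Fin n) :
    kdist x z ≤ kdist x y + kdist y z := by
  rcases x with a | i <;> rcases y with b | j <;> rcases z with c | k <;>
    simp only [kdist] <;> split_ifs <;> first | (norm_num; done) | (exfalso; simp_all)

theorem eq_of_kdist {n : ℕ} (x y : Bool ⊕ Fin n) (h : kdist x y = 0) : x = y := by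
  rcases x with a | i <;> rcases y with b | j <;> simp only [kdist] at h
  · split_ifs at h with h1
    · rw [h1]
    · norm_num at h
  · norm_num at h
  · norm_num at h
  · split_ifs at h with h1
    · rw [h1]
    · norm_num at h

/-- the metric space `K_{2,n}` -/
@[reducible] noncomputable def kMetric (n : ℕ) : MetricSpace (Bool ⊕ Fin n) where
  dist := kdist
  dist_self := kdist_self
  dist_comm := kdist_comm
  dist_triangle := kdist_triangle
  eq_of_dist_eq_zero := fun {x y} h => eq_of_kdist x y h

theorem kdist_adj {n : ℕ} (x y : Bool ⊕ Fin n)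
    (h : (completeBipartiteGraph Bool (Fin n)).Adj x y) : kdist x y = 1 := by
  rcases x with a | i <;> rcases y with b | j <;> simp_all [kdist]

theorem kdist_le_walk {n : ℕ} {x y : Bool ⊕ Fin n}
    (p : (completeBipartiteGraph Bool (Fin n)).Walk x y) :
    kdist x y ≤ walkLen (fun _ _ => (1 : ℝ)) p := by
  induction p with
  | nil => simp [walkLen, kdist_self]
  | @cons u v w hadj q ih =>
    have h3 : walkLen (fun _ _ => (1 : ℝ)) (SimpleGraph.Walk.cons hadj q)
        = 1 + walkLen (fun _ _ => (1 : ℝ)) q := rfl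
    rw [h3]
    have h1 := kdist_triangle u v w
    rw [kdist_adj u v hadj] at h1
    linarith

theorem exists_walk {n : ℕ} (hn : 0 < n) (x y : Bool ⊕ Fin n) :
    ∃ p : (completeBipartiteGraph Bool (Fin n)).Walk x y,
      walkLen (fun _ _ => (1 : ℝ)) p = kdist x y := by
  rcases x with a | i <;> rcases y with b | j
  · by_cases hab : a = b
    · subst hab
      exact ⟨SimpleGraph.Walk.nil, by simp [walkLen, kdist]⟩
    · have h1 : (completeBipartiteGraph Bool (Fin n)).Adj (Sum.inl a) (Sum.inr ⟨0, hn⟩) := by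
        simp
      have h2 : (completeBipartiteGraph Bool (Fin n)).Adj (Sum.inr ⟨0, hn⟩) (Sum.inl b) := by
        simp
      refine ⟨SimpleGraph.Walk.cons h1 (SimpleGraph.Walk.cons h2 SimpleGraph.Walk.nil), ?_⟩
      simp [walkLen, kdist, hab]
      norm_num
  · have h1 : (completeBipartiteGraph Bool (Fin n)).Adj (Sum.inl a) (Sum.inr j) := by simp
    exact ⟨SimpleGraph.Walk.cons h1 SimpleGraph.Walk.nil, by simp [walkLen, kdist]⟩
  · have h1 : (completeBipartiteGraph Bool (Fin n)).Adj (Sum.inr i) (Sum.inl b) := by simp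
    exact ⟨SimpleGraph.Walk.cons h1 SimpleGraph.Walk.nil, by simp [walkLen, kdist]⟩
  · by_cases hij : i = j
    · subst hij
      exact ⟨SimpleGraph.Walk.nil, by simp [walkLen, kdist]⟩
    · have h1 : (completeBipartiteGraph Bool (Fin n)).Adj (Sum.inr i) (Sum.inl true) := by
        simp
      have h2 : (completeBipartiteGraph Bool (Fin n)).Adj (Sum.inl true) (Sum.inr j) := by
        simp
      refine ⟨SimpleGraph.Walk.cons h1 (SimpleGraph.Walk.cons h2 SimpleGraph.Walk.nil), ?_⟩
      simp [walkLen, kdist, hij]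
      norm_num

theorem kdist_isGLB {n : ℕ} (hn : 0 < n) (x y : Bool ⊕ Fin n) :
    IsGLB (Set.range (fun p : (completeBipartiteGraph Bool (Fin n)).Walk x y =>
      walkLen (fun _ _ => (1 : ℝ)) p)) (kdist x y) := by
  constructor
  · rintro _ ⟨p, rfl⟩
    exact kdist_le_walk p
  · intro b hb
    obtain ⟨p, hp⟩ := exists_walk hn x y
    rw [← hp]
    exact hb ⟨p, rfl⟩

theorem k_cover {n : ℕ} (x y : Bool ⊕ Fin n)
    (h : (completeBipartiteGraph Bool (Fin n)).Adj x y) :
    x = Sum.inl true ∨ x = Sum.inl false ∨ y = Sum.inl true ∨ y = Sum.inl false := by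
  rcases x with a | i <;> rcases y with b | j
  · simp at h
  · cases a <;> simp
  · cases b <;> simp
  · simp at h

end Vale.Agent.Lib.P235
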