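import Vale.Agent.Lib.P235.L1

/-!
# P235: the one-level semimetric and the level decomposition
-/

namespace Vale.Agent.Lib.P235

variable {X : Type}

theorem sum_half {E : Type} [Fintype E] (φ : E → E) (hφ : Function.Involutive φ) (F : E → ℝ)
    (h : ∀ e, F e + F (φ e) = 1) : ∑ e, F e = (Fintype.card E : ℝ) / 2 := by
  have h1 : ∑ e, F (φ e) = ∑ e, F e := Equiv.sum_comp (hφ.toPerm φ) F
  have h2 : ∑ e, (F e + F (φ e)) = (Fintype.card E : ℝ) := by
    simp [h]
  rw [Finset.sum_add_distrib, h1] at h2
  linarith

/-- side of the point `z` in the random cut `ε`: undecided points follow `ε`, the others `σ` -/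
def val (und σ : X → Bool) (z : X) (ε : X → Bool) : ℝ :=
  if und z = true then (if ε z = true then 1 else 0) else (if σ z = true then 1 else 0)

/-- one level: undecided points are at distance `1` from everything, decided points are at
distance `0` or `2` according to their sides -/
def kap [DecidableEq X] (und σ : X → Bool) (x y : X) : ℝ :=
  if x = y then 0 else if (und x = true ∨ und y = true) then 1 else if σ x = σ y then 0 else 2

theorem flip_inv [DecidableEq X] (x : X) :
    Function.Involutive (fun ε : X → Bool => Function.update ε x (!ε x)) := by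
  intro ε
  funext z
  by_cases hz : z = x
  · subst hz
    simp
  · simp [Function.update_of_ne hz]

theorem sum_val [Fintype X] [DecidableEq X] (und σ : X → Bool) (x y : X) (hxy : x ≠ y)
    (hx : und x = true) :
    ∑ ε : X → Bool, |val und σ x ε - val und σ y ε| = (Fintype.card (X → Bool) : ℝ) / 2 := by
  refine sum_half (fun ε : X → Bool => Function.update ε x (!ε x)) (flip_inv x)
    (fun ε => |val und σ x ε - val und σ y ε|) ?_
  intro ε
  show |val und σ x ε - val und σ y ε|
    + |val und σ x (Function.update ε x (!ε x)) - val und σ y (Function.update ε x (!ε x))| = 1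
  have hy : val und σ y (Function.update ε x (!ε x)) = val und σ y ε := by
    unfold val
    rw [Function.update_of_ne (Ne.symm hxy)]
  have hx1 : val und σ x ε = if ε x = true then 1 else 0 := by
    unfold val
    rw [if_pos hx]
  have hx2 : val und σ x (Function.update ε x (!ε x)) = if ε x = true then 0 else 1 := by
    unfold val
    rw [if_pos hx, Function.update_self]
    cases ε x <;> simp
  have hy01 : val und σ y ε = 0 ∨ val und σ y ε = 1 := by
    unfold val
    split_ifs <;> simp
  rw [hy, hx1, hx2]
  rcases hy01 with h | h <;> rw [h] <;> cases ε x <;> norm_num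

theorem kap_isL1 [Fintype X] [DecidableEq X] (und σ : X → Bool) : IsL1 (kap und σ) := by
  have hK : (0 : ℝ) < (Fintype.card (X → Bool) : ℝ) := by
    exact_mod_cast Fintype.card_pos
  refine ⟨X → Bool, inferInstance,
    fun z ε => 2 / (Fintype.card (X → Bool) : ℝ) * val und σ z ε, fun x y => ?_⟩
  show kap und σ x y = ∑ ε : X → Bool, |2 / (Fintype.card (X → Bool) : ℝ) * val und σ x ε
    - 2 / (Fintype.card (X → Bool) : ℝ) * val und σ y ε|
  have hsum : ∑ ε : X → Bool, |2 / (Fintype.card (X → Bool) : ℝ) * val und σ x ε
      - 2 / (Fintype.card (X → Bool) : ℝ) * val und σ y ε|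
      = 2 / (Fintype.card (X → Bool) : ℝ) * ∑ ε : X → Bool, |val und σ x ε - val und σ y ε| := by
    rw [Finset.mul_sum]
    refine Finset.sum_congr rfl fun ε _ => ?_
    rw [← mul_sub, abs_mul, abs_of_nonneg (by positivity)]
  rw [hsum]
  unfold kap
  by_cases hxy : x = y
  · subst hxy
    simp
  rw [if_neg hxy]
  by_cases hx : und x = true
  · rw [if_pos (Or.inl hx), sum_val und σ x y hxy hx]
    field_simp
  by_cases hy : und y = true
  · rw [if_pos (Or.inr hy)]
    have h := sum_val und σ y x (Ne.symm hxy) hy
    have h2 : ∑ ε : X → Bool, |val und σ x ε - val und σ y ε|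
        = ∑ ε : X → Bool, |val und σ y ε - val und σ x ε| :=
      Finset.sum_congr rfl fun ε _ => abs_sub_comm _ _
    rw [h2, h]
    field_simp
  rw [if_neg (by tauto)]
  have hvx : ∀ ε, val und σ x ε = if σ x = true then 1 else 0 := by
    intro ε
    unfold val
    rw [if_neg hx]
  have hvy : ∀ ε, val und σ y ε = if σ y = true then 1 else 0 := by
    intro ε
    unfold val
    rw [if_neg hy]
  simp only [hvx, hvy]
  by_cases hs : σ x = σ y
  · rw [if_pos hs, hs]
    simp
  · rw [if_neg hs]
    have h1 : |(if σ x = true then (1 : ℝ) else 0) - (if σ y = true then (1 : ℝ) else 0)| = 1 := by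
      cases hsx : σ x <;> cases hsy : σ y <;> simp_all
    rw [h1]
    simp

end Vale.Agent.Lib.P235
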