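import Mathlib

/-!
# P235: semimetrics realised in finite-dimensional `ℓ₁` spaces
-/

namespace Vale.Agent.Lib.P235

variable {X : Type}

/-- `N` is realised by a map into a finite-dimensional `ℓ₁` space. -/
def IsL1 (N : X → X → ℝ) : Prop :=
  ∃ (ι : Type) (_ : Fintype ι) (f : X → ι → ℝ), ∀ x y, N x y = ∑ k, |f x k - f y k|

theorem IsL1.add {N M : X → X → ℝ} (hN : IsL1 N) (hM : IsL1 M) :
    IsL1 (fun x y => N x y + M x y) := by
  obtain ⟨ι, _, f, hf⟩ := hN
  obtain ⟨κ, _, g, hg⟩ := hM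
  refine ⟨ι ⊕ κ, inferInstance, fun x => Sum.elim (f x) (g x), fun x y => ?_⟩
  show N x y + M x y = _
  rw [Fintype.sum_sum_type, hf, hg]
  simp

theorem IsL1.smul {N : X → X → ℝ} {c : ℝ} (hc : 0 ≤ c) (hN : IsL1 N) :
    IsL1 (fun x y => c * N x y) := by
  obtain ⟨ι, _, f, hf⟩ := hN
  refine ⟨ι, inferInstance, fun x k => c * f x k, fun x y => ?_⟩
  show c * N x y = ∑ k, |c * f x k - c * f y k|
  rw [hf, Finset.mul_sum]
  refine Finset.sum_congr rfl fun k _ => ?_
  rw [← mul_sub, abs_mul, abs_of_nonneg hc]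

theorem IsL1.congr {N M : X → X → ℝ} (h : ∀ x y, N x y = M x y) (hN : IsL1 N) : IsL1 M := by
  obtain ⟨ι, _, f, hf⟩ := hN
  exact ⟨ι, inferInstance, f, fun x y => by rw [← h, hf]⟩

/-- private coordinates: a pendant edge of length `c x` at every point -/
theorem IsL1.priv [Fintype X] [DecidableEq X] (c : X → ℝ) (hc : ∀ x, 0 ≤ c x) :
    IsL1 (fun x y => if x = y then 0 else c x + c y) := by
  refine ⟨X, inferInstance, fun x k => if k = x then c x else 0, fun x y => ?_⟩
  show (if x = y then 0 else c x + c y)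
    = ∑ k, |(if k = x then c x else 0) - (if k = y then c y else 0)|
  by_cases hxy : x = y
  · subst hxy
    simp
  · rw [if_neg hxy, Finset.sum_eq_add x y hxy]
    · have hyx : y ≠ x := fun h => hxy h.symm
      simp [hxy, hyx, abs_of_nonneg (hc x), abs_of_nonneg (hc y)]
    · intro k _ hk
      simp [hk.1, hk.2]
    · intro h
      exact absurd (Finset.mem_univ x) h
    · intro h
      exact absurd (Finset.mem_univ y) h

end Vale.Agent.Lib.P235
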