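import Vale.Agent.Lib.P235.Kappa

/-!
# P235: the level decomposition and the structural embedding lemma
-/

namespace Vale.Agent.Lib.P235

variable {X : Type}

/-- the two-sided max semimetric -/
def Nf [DecidableEq X] (σ : X → Bool) (W : ℝ) (w : X → ℝ) (x y : X) : ℝ :=
  if x = y then 0 else if σ x = σ y then max (w x) (w y) else 2 * W - max (w x) (w y)

theorem Nf_isL1_aux [Fintype X] [DecidableEq X] (σ : X → Bool) (n : ℕ) :
    ∀ (W : ℝ) (w : X → ℝ), (∀ x, 0 ≤ w x) → (∀ x, w x ≤ W) → 0 ≤ W →
      (Finset.univ.filter (fun x => 0 < w x)).card = n → IsL1 (Nf σ W w) := by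
  induction n using Nat.strong_induction_on with
  | _ n ih =>
    intro W w hw0 hwW hW hn
    by_cases hS : (Finset.univ.filter (fun x => 0 < w x)).Nonempty
    · obtain ⟨x0, hx0, hmin⟩ := Finset.exists_min_image _ w hS
      have hc : 0 < w x0 := (Finset.mem_filter.mp hx0).2
      have hmin' : ∀ x, 0 < w x → w x0 ≤ w x := fun x hx =>
        hmin x (Finset.mem_filter.mpr ⟨Finset.mem_univ x, hx⟩)
      have hcard : (Finset.univ.filter (fun x => 0 < max (w x - w x0) 0)).card < n := by
        rw [← hn]
        apply Finset.card_lt_card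
        rw [Finset.ssubset_iff_of_subset]
        · refine ⟨x0, hx0, ?_⟩
          simp
        · intro x hx
          rw [Finset.mem_filter] at hx ⊢
          refine ⟨Finset.mem_univ x, ?_⟩
          have h1 := hx.2
          rcases lt_max_iff.mp h1 with h | h
          · linarith
          · exact absurd h (lt_irrefl 0)
      have hrec : IsL1 (Nf σ (W - w x0) (fun x => max (w x - w x0) 0)) :=
        ih _ hcard (W - w x0) (fun x => max (w x - w x0) 0)
          (fun x => le_max_right _ _)
          (fun x => max_le (by linarith [hwW x]) (by linarith [hwW x0]))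
          (by linarith [hwW x0]) rfl
      have hk : IsL1 (fun x y => w x0 * kap (fun z => decide (0 < w z)) σ x y) :=
        IsL1.smul hc.le (kap_isL1 _ σ)
      refine IsL1.congr ?_ (hrec.add hk)
      intro x y
      show Nf σ (W - w x0) (fun x => max (w x - w x0) 0) x y
        + w x0 * kap (fun z => decide (0 < w z)) σ x y = Nf σ W w x y
      unfold Nf kap
      beta_reduce
      by_cases hxy : x = y
      · simp [hxy]
      rw [if_neg hxy, if_neg hxy, if_neg hxy]
      by_cases hu : 0 < w x ∨ 0 < w y
      · have hu' : (decide (0 < w x) = true ∨ decide (0 < w y) = true) := by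
          simpa using hu
        rw [if_pos hu']
        have hmax : max (max (w x - w x0) 0) (max (w y - w x0) 0) = max (w x) (w y) - w x0 := by
          have hx1 : w x = 0 ∨ w x0 ≤ w x := by
            rcases (hw0 x).eq_or_lt with h | h
            · exact Or.inl h.symm
            · exact Or.inr (hmin' x h)
          have hy1 : w y = 0 ∨ w x0 ≤ w y := by
            rcases (hw0 y).eq_or_lt with h | h
            · exact Or.inl h.symm
            · exact Or.inr (hmin' y h)
          rcases hx1 with hx1 | hx1 <;> rcases hy1 with hy1 | hy1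
          · rcases hu with h | h <;> linarith
          · rw [hx1]
            rw [max_eq_right (by linarith : (0 : ℝ) - w x0 ≤ 0),
              max_eq_left (by linarith : (0 : ℝ) ≤ w y - w x0),
              max_eq_right (by linarith : (0 : ℝ) ≤ w y - w x0),
              max_eq_right (by linarith : (0 : ℝ) ≤ w y)]
          · rw [hy1]
            rw [max_eq_right (by linarith : (0 : ℝ) - w x0 ≤ 0),
              max_eq_left (by linarith : (0 : ℝ) ≤ w x - w x0),
              max_eq_left (by linarith : (0 : ℝ) ≤ w x - w x0),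
              max_eq_left (by linarith : (0 : ℝ) ≤ w x)]
          · rw [max_eq_left (by linarith : (0 : ℝ) ≤ w x - w x0),
              max_eq_left (by linarith : (0 : ℝ) ≤ w y - w x0), max_sub_sub_right]
        rw [hmax]
        split_ifs <;> ring
      · have hu' : ¬ (decide (0 < w x) = true ∨ decide (0 < w y) = true) := by
          simpa using hu
        rw [if_neg hu']
        have hx1 : w x = 0 := by
          have := hw0 x
          by_contra h
          exact hu (Or.inl (lt_of_le_of_ne this (Ne.symm h)))
        have hy1 : w y = 0 := by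
          have := hw0 y
          by_contra h
          exact hu (Or.inr (lt_of_le_of_ne this (Ne.symm h)))
        rw [hx1, hy1, max_eq_right (by linarith : (0 : ℝ) - w x0 ≤ 0)]
        split_ifs <;> simp <;> ring
    · have hz : ∀ x, w x = 0 := by
        intro x
        by_contra h
        exact hS ⟨x, Finset.mem_filter.mpr
          ⟨Finset.mem_univ x, lt_of_le_of_ne (hw0 x) (Ne.symm h)⟩⟩
      have hk : IsL1 (fun x y => W * kap (fun _ => false) σ x y) :=
        IsL1.smul hW (kap_isL1 _ σ)
      refine IsL1.congr ?_ hk
      intro x y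
      show W * kap (fun _ => false) σ x y = Nf σ W w x y
      unfold Nf kap
      rw [hz x, hz y]
      split_ifs <;> simp_all <;> ring

theorem Nf_isL1 [Fintype X] [DecidableEq X] (σ : X → Bool) (W : ℝ) (w : X → ℝ)
    (hw0 : ∀ x, 0 ≤ w x) (hwW : ∀ x, w x ≤ W) (hW : 0 ≤ W) : IsL1 (Nf σ W w) :=
  Nf_isL1_aux σ _ W w hw0 hwW hW rfl

/-- structural lemma: heights `h`, sides `σ`, depths `w` in `[0, W]` -/
theorem struct [Fintype X] [DecidableEq X] (d : X → X → ℝ) (σ : X → Bool) (W : ℝ) (w h : X → ℝ)
    (hh : ∀ x, 0 ≤ h x) (hw0 : ∀ x, 0 ≤ w x) (hwW : ∀ x, w x ≤ W) (hW : 0 ≤ W)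
    (hd0 : ∀ x, d x x = 0)
    (hd : ∀ x y, x ≠ y →
      d x y = h x + h y + (if σ x = σ y then w x + w y else 2 * W - |w x - w y|)) :
    ∃ V : X → X → ℝ, IsL1 V ∧ ∀ x y, d x y ≤ V x y ∧ V x y ≤ 3 / 2 * d x y := by
  refine ⟨fun x y => (if x = y then 0 else (h x + w x / 2) + (h y + w y / 2)) + Nf σ W w x y,
    (IsL1.priv (fun x => h x + w x / 2) (fun x => by linarith [hh x, hw0 x])).add
      (Nf_isL1 σ W w hw0 hwW hW), fun x y => ?_⟩
  show d x y ≤ (if x = y then 0 else (h x + w x / 2) + (h y + w y / 2)) + Nf σ W w x y
    ∧ (if x = y then 0 else (h x + w x / 2) + (h y + w y / 2)) + Nf σ W w x y ≤ 3 / 2 * d x y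
  unfold Nf
  by_cases hxy : x = y
  · subst hxy
    simp [hd0]
  rw [if_neg hxy, if_neg hxy, hd x y hxy]
  have hx0 := hw0 x
  have hy0 := hw0 y
  have hxW := hwW x
  have hyW := hwW y
  have hhx := hh x
  have hhy := hh y
  by_cases hs : σ x = σ y
  · rw [if_pos hs, if_pos hs]
    rcases le_total (w x) (w y) with hle | hle
    · rw [max_eq_right hle]
      constructor <;> linarith
    · rw [max_eq_left hle]
      constructor <;> linarith
  · rw [if_neg hs, if_neg hs]
    rcases le_total (w x) (w y) with hle | hle
    · rw [max_eq_right hle, abs_of_nonpos (by linarith)]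
      constructor <;> linarith
    · rw [max_eq_left hle, abs_of_nonneg (by linarith)]
      constructor <;> linarith

end Vale.Agent.Lib.P235
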