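import Mathlib

/-!
# P235: the lower bound `3/2` for `ℓ₁` embeddings of `K_{2,n}`
-/

namespace Vale.Agent.Lib.P235

theorem core (n : ℕ) (p q : ℝ) (hpq : p ≤ q) (b : Fin n → ℝ) (hb : ∀ i, p ≤ b i ∧ b i ≤ q) :
    ∑ i, ∑ j, |b i - b j| ≤ (q - p) * (n : ℝ) ^ 2 / 2 := by
  rcases hpq.eq_or_lt with h | h
  · have hz : ∀ i, b i = p := fun i => le_antisymm (by rw [h]; exact (hb i).2) (hb i).1
    simp [hz, h]
  · have hL : 0 < q - p := by linarith
    have hpt : ∀ i j, (q - p) * |b i - b j|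
        ≤ (b i - p) * (q - b j) + (b j - p) * (q - b i) := by
      intro i j
      have h1 := (hb i).1
      have h2 := (hb i).2
      have h3 := (hb j).1
      have h4 := (hb j).2
      rcases le_total (b i) (b j) with hle | hle
      · rw [abs_of_nonpos (by linarith)]
        nlinarith [mul_nonneg (sub_nonneg.mpr h1) (sub_nonneg.mpr h4)]
      · rw [abs_of_nonneg (by linarith)]
        nlinarith [mul_nonneg (sub_nonneg.mpr h3) (sub_nonneg.mpr h2)]
    have h1 : (q - p) * ∑ i, ∑ j, |b i - b j|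
        ≤ ∑ i, ∑ j, ((b i - p) * (q - b j) + (b j - p) * (q - b i)) := by
      rw [Finset.mul_sum]
      apply Finset.sum_le_sum
      intro i _
      rw [Finset.mul_sum]
      apply Finset.sum_le_sum
      intro j _
      exact hpt i j
    have e1 : ∑ i, ∑ j, (b i - p) * (q - b j) = (∑ i, (b i - p)) * (∑ j, (q - b j)) :=
      (Finset.sum_mul_sum _ _ _ _).symm
    have e2 : ∑ i, ∑ j, (b j - p) * (q - b i) = (∑ i, (b i - p)) * (∑ j, (q - b j)) := by
      rw [Finset.sum_comm]
      exact e1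
    have h2 : ∑ i, ∑ j, ((b i - p) * (q - b j) + (b j - p) * (q - b i))
        = 2 * ((∑ i, (b i - p)) * (∑ j, (q - b j))) := by
      simp only [Finset.sum_add_distrib]
      rw [e1, e2]
      ring
    have h3 : (∑ i, (b i - p)) + (∑ j, (q - b j)) = (n : ℝ) * (q - p) := by
      rw [← Finset.sum_add_distrib]
      have : ∀ i : Fin n, (b i - p) + (q - b i) = q - p := fun i => by ring
      simp only [this, Finset.sum_const, Finset.card_univ, Fintype.card_fin, nsmul_eq_mul]
    set P := ∑ i, (b i - p)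
    set Q := ∑ j, (q - b j)
    have h4 : 2 * (P * Q) ≤ ((n : ℝ) * (q - p)) ^ 2 / 2 := by
      rw [← h3]
      nlinarith [sq_nonneg (P - Q)]
    have h5 : (q - p) * ∑ i, ∑ j, |b i - b j| ≤ (q - p) * ((q - p) * (n : ℝ) ^ 2 / 2) := by
      calc (q - p) * ∑ i, ∑ j, |b i - b j| ≤ 2 * (P * Q) := by rw [← h2]; exact h1
        _ ≤ ((n : ℝ) * (q - p)) ^ 2 / 2 := h4
        _ = (q - p) * ((q - p) * (n : ℝ) ^ 2 / 2) := by ring
    exact le_of_mul_le_mul_left h5 hL

theorem sum_offdiag (n : ℕ) (e : Fin n → ℝ) :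
    ∑ i, ∑ j, (if i = j then 0 else e i + e j) = 2 * ((n : ℝ) - 1) * ∑ i, e i := by
  have h : ∀ i, ∑ j, (if i = j then 0 else e i + e j)
      = (n : ℝ) * e i + (∑ j, e j) - 2 * e i := by
    intro i
    have h1 : ∀ j, (if i = j then (0 : ℝ) else e i + e j)
        = (e i + e j) - (if i = j then e i + e j else 0) := by
      intro j
      split_ifs <;> ring
    simp only [h1, Finset.sum_sub_distrib, Finset.sum_ite_eq, Finset.mem_univ, if_true,
      Finset.sum_add_distrib, Finset.sum_const, Finset.card_univ, Fintype.card_fin, nsmul_eq_mul]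
    ring
  simp only [h, Finset.sum_sub_distrib, Finset.sum_add_distrib, Finset.sum_const,
    Finset.card_univ, Fintype.card_fin, nsmul_eq_mul, ← Finset.mul_sum]
  ring

theorem oneD_le (n : ℕ) (p q : ℝ) (hpq : p ≤ q) (a : Fin n → ℝ) :
    ∑ i, ∑ j, |a i - a j| + (n : ℝ) * ((n : ℝ) - 2) / 2 * |p - q|
      ≤ ((n : ℝ) - 1) * ∑ i, (|p - a i| + |q - a i|) := by
  have hb : ∀ i, p ≤ max p (min (a i) q) ∧ max p (min (a i) q) ≤ q := fun i =>
    ⟨le_max_left _ _, max_le hpq (min_le_right _ _)⟩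
  have he : ∀ i, |p - a i| + |q - a i| = (q - p) + 2 * |a i - max p (min (a i) q)| := by
    intro i
    rcases le_total (a i) p with h1 | h1
    · rw [min_eq_left (by linarith), max_eq_left h1, abs_of_nonneg (by linarith),
        abs_of_nonneg (by linarith), abs_of_nonpos (by linarith)]
      ring
    · rcases le_total (a i) q with h2 | h2
      · rw [min_eq_left h2, max_eq_right h1, abs_of_nonpos (by linarith),
          abs_of_nonneg (by linarith)]
        simp
      · rw [min_eq_right h2, max_eq_right hpq, abs_of_nonpos (by linarith),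
          abs_of_nonpos (by linarith), abs_of_nonneg (by linarith)]
        ring
  have hpt : ∀ i j, |a i - a j|
      ≤ (if i = j then 0 else |a i - max p (min (a i) q)| + |a j - max p (min (a j) q)|)
        + |max p (min (a i) q) - max p (min (a j) q)| := by
    intro i j
    by_cases hij : i = j
    · subst hij
      simp
    · rw [if_neg hij]
      have h := abs_add_three (a i - max p (min (a i) q))
        (max p (min (a i) q) - max p (min (a j) q)) (max p (min (a j) q) - a j)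
      rw [abs_sub_comm (max p (min (a j) q)) (a j)] at h
      have h2 : a i - max p (min (a i) q) + (max p (min (a i) q) - max p (min (a j) q))
          + (max p (min (a j) q) - a j) = a i - a j := by ring
      rw [h2] at h
      linarith
  have h1 : ∑ i, ∑ j, |a i - a j|
      ≤ 2 * ((n : ℝ) - 1) * ∑ i, |a i - max p (min (a i) q)| + (q - p) * (n : ℝ) ^ 2 / 2 := by
    calc ∑ i, ∑ j, |a i - a j|
        ≤ ∑ i, ∑ j, ((if i = j then 0
            else |a i - max p (min (a i) q)| + |a j - max p (min (a j) q)|)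
          + |max p (min (a i) q) - max p (min (a j) q)|) :=
          Finset.sum_le_sum fun i _ => Finset.sum_le_sum fun j _ => hpt i j
      _ = ∑ i, ∑ j, (if i = j then 0
            else |a i - max p (min (a i) q)| + |a j - max p (min (a j) q)|)
          + ∑ i, ∑ j, |max p (min (a i) q) - max p (min (a j) q)| := by
          simp only [Finset.sum_add_distrib]
      _ ≤ _ := by
          rw [sum_offdiag n (fun i => |a i - max p (min (a i) q)|)]
          have := core n p q hpq (fun i => max p (min (a i) q)) hb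
          linarith
  have h2 : ∑ i, (|p - a i| + |q - a i|)
      = (n : ℝ) * (q - p) + 2 * ∑ i, |a i - max p (min (a i) q)| := by
    simp only [he, Finset.sum_add_distrib, Finset.sum_const, Finset.card_univ, Fintype.card_fin,
      nsmul_eq_mul, ← Finset.mul_sum]
  rw [h2, abs_of_nonpos (by linarith : p - q ≤ 0)]
  nlinarith

theorem oneD (n : ℕ) (p q : ℝ) (a : Fin n → ℝ) :
    ∑ i, ∑ j, |a i - a j| + (n : ℝ) * ((n : ℝ) - 2) / 2 * |p - q|
      ≤ ((n : ℝ) - 1) * ∑ i, (|p - a i| + |q - a i|) := by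
  rcases le_total p q with h | h
  · exact oneD_le n p q h a
  · have := oneD_le n q p h a
    rw [abs_sub_comm p q]
    have h2 : ∑ i, (|p - a i| + |q - a i|) = ∑ i, (|q - a i| + |p - a i|) :=
      Finset.sum_congr rfl fun i _ => add_comm _ _
    rw [h2]
    exact this

theorem poincare (n m : ℕ) (P Q : Fin m → ℝ) (A : Fin n → Fin m → ℝ) :
    ∑ i, ∑ j, ∑ k, |A i k - A j k| + (n : ℝ) * ((n : ℝ) - 2) / 2 * ∑ k, |P k - Q k|
      ≤ ((n : ℝ) - 1) * ∑ i, (∑ k, |P k - A i k| + ∑ k, |Q k - A i k|) := by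
  have h : ∀ k, ∑ i, ∑ j, |A i k - A j k| + (n : ℝ) * ((n : ℝ) - 2) / 2 * |P k - Q k|
      ≤ ((n : ℝ) - 1) * ∑ i, (|P k - A i k| + |Q k - A i k|) := fun k =>
    oneD n (P k) (Q k) (fun i => A i k)
  have hs := Finset.sum_le_sum (s := Finset.univ) fun k _ => h k
  have e1 : ∑ k, (∑ i, ∑ j, |A i k - A j k| + (n : ℝ) * ((n : ℝ) - 2) / 2 * |P k - Q k|)
      = ∑ i, ∑ j, ∑ k, |A i k - A j k| + (n : ℝ) * ((n : ℝ) - 2) / 2 * ∑ k, |P k - Q k| := by
    rw [Finset.sum_add_distrib, ← Finset.mul_sum, Finset.sum_comm]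
    congr 1
    refine Finset.sum_congr rfl fun i _ => ?_
    rw [Finset.sum_comm]
  have e2 : ∑ k, ((n : ℝ) - 1) * ∑ i, (|P k - A i k| + |Q k - A i k|)
      = ((n : ℝ) - 1) * ∑ i, (∑ k, |P k - A i k| + ∑ k, |Q k - A i k|) := by
    rw [← Finset.mul_sum, Finset.sum_comm]
    congr 1
    refine Finset.sum_congr rfl fun i _ => ?_
    rw [Finset.sum_add_distrib]
  rw [e1, e2] at hs
  exact hs

theorem K2n_lower (n : ℕ) (hn : 2 ≤ n) {X : Type} (d : X → X → ℝ) (s t : X) (x : Fin n → X)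
    (hst : d s t = 2) (hxx : ∀ i j, i ≠ j → d (x i) (x j) = 2) (hsx : ∀ i, d s (x i) = 1)
    (htx : ∀ i, d t (x i) = 1) (C : ℝ) (m : ℕ) (f : X → Fin m → ℝ)
    (hf : ∀ a b, d a b ≤ ∑ k, |f a k - f b k| ∧ ∑ k, |f a k - f b k| ≤ C * d a b) :
    3 * (n : ℝ) ^ 2 - 4 * n ≤ 2 * n * ((n : ℝ) - 1) * C := by
  have hn' : (2 : ℝ) ≤ n := by exact_mod_cast hn
  have hp := poincare n m (f s) (f t) (fun i => f (x i))
  have h1 : 2 * ((n : ℝ) - 1) * ∑ _i : Fin n, (1 : ℝ) ≤ ∑ i, ∑ j, ∑ k, |f (x i) k - f (x j) k| := by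
    rw [← sum_offdiag n (fun _ => (1 : ℝ))]
    refine Finset.sum_le_sum fun i _ => Finset.sum_le_sum fun j _ => ?_
    by_cases hij : i = j
    · subst hij
      simp
    · rw [if_neg hij]
      have := (hf (x i) (x j)).1
      rw [hxx i j hij] at this
      linarith
  have h2 : (2 : ℝ) ≤ ∑ k, |f s k - f t k| := by
    have := (hf s t).1
    rwa [hst] at this
  have h3 : ∑ i, (∑ k, |f s k - f (x i) k| + ∑ k, |f t k - f (x i) k|)
      ≤ ∑ _i : Fin n, (2 * C) := by
    refine Finset.sum_le_sum fun i _ => ?_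
    have a1 := (hf s (x i)).2
    have a2 := (hf t (x i)).2
    rw [hsx i] at a1
    rw [htx i] at a2
    linarith
  simp only [Finset.sum_const, Finset.card_univ, Fintype.card_fin, nsmul_eq_mul, mul_one] at h1 h3
  have h4 : (n : ℝ) * ((n : ℝ) - 2) / 2 * 2
      ≤ (n : ℝ) * ((n : ℝ) - 2) / 2 * ∑ k, |f s k - f t k| :=
    mul_le_mul_of_nonneg_left h2 (by nlinarith)
  have h5 : ((n : ℝ) - 1) * ∑ i, (∑ k, |f s k - f (x i) k| + ∑ k, |f t k - f (x i) k|)
      ≤ ((n : ℝ) - 1) * ((n : ℝ) * (2 * C)) :=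
    mul_le_mul_of_nonneg_left h3 (by linarith)
  nlinarith

end Vale.Agent.Lib.P235
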