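import Vale.Agent.Lib.P235.Lower

/-!
# P235: the lower bound `3/2` for embeddings of `K_{2,n}` in arbitrary `L₁(μ)` spaces
-/

namespace Vale.Agent.Lib.P235

open MeasureTheory

theorem poincare_int {Ω : Type} [MeasurableSpace Ω] (μ : Measure Ω) (n : ℕ) (P Q : Ω → ℝ)
    (A : Fin n → Ω → ℝ) (hP : Integrable P μ) (hQ : Integrable Q μ)
    (hA : ∀ i, Integrable (A i) μ) :
    ∑ i, ∑ j, ∫ ω, |A i ω - A j ω| ∂μ + (n : ℝ) * ((n : ℝ) - 2) / 2 * ∫ ω, |P ω - Q ω| ∂μ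
      ≤ ((n : ℝ) - 1) * ∑ i, (∫ ω, |P ω - A i ω| ∂μ + ∫ ω, |Q ω - A i ω| ∂μ) := by
  have hAA : ∀ i j, Integrable (fun ω => |A i ω - A j ω|) μ := fun i j =>
    ((hA i).sub (hA j)).abs
  have hPQ : Integrable (fun ω => |P ω - Q ω|) μ := (hP.sub hQ).abs
  have hPA : ∀ i, Integrable (fun ω => |P ω - A i ω|) μ := fun i => (hP.sub (hA i)).abs
  have hQA : ∀ i, Integrable (fun ω => |Q ω - A i ω|) μ := fun i => (hQ.sub (hA i)).abs
  have i1 : Integrable (fun ω => ∑ i, ∑ j, |A i ω - A j ω|) μ :=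
    integrable_finsetSum _ fun i _ => integrable_finsetSum _ fun j _ => hAA i j
  have i2 : Integrable (fun ω => (n : ℝ) * ((n : ℝ) - 2) / 2 * |P ω - Q ω|) μ :=
    hPQ.const_mul _
  have hsum : ∀ i, Integrable (fun ω => |P ω - A i ω| + |Q ω - A i ω|) μ := fun i =>
    (hPA i).add (hQA i)
  have i3 : Integrable (fun ω => ∑ i, (|P ω - A i ω| + |Q ω - A i ω|)) μ :=
    integrable_finsetSum _ fun i _ => hsum i
  have key : ∫ ω, ((∑ i, ∑ j, |A i ω - A j ω|)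
        + (n : ℝ) * ((n : ℝ) - 2) / 2 * |P ω - Q ω|) ∂μ
      ≤ ∫ ω, (((n : ℝ) - 1) * ∑ i, (|P ω - A i ω| + |Q ω - A i ω|)) ∂μ :=
    integral_mono (i1.add i2) (i3.const_mul _)
      (fun ω => oneD n (P ω) (Q ω) (fun i => A i ω))
  have e1 : ∫ ω, ((∑ i, ∑ j, |A i ω - A j ω|)
        + (n : ℝ) * ((n : ℝ) - 2) / 2 * |P ω - Q ω|) ∂μ
      = ∑ i, ∑ j, ∫ ω, |A i ω - A j ω| ∂μ
        + (n : ℝ) * ((n : ℝ) - 2) / 2 * ∫ ω, |P ω - Q ω| ∂μ := by
    rw [integral_add i1 i2, integral_const_mul,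
      integral_finsetSum _ fun i _ => integrable_finsetSum _ fun j _ => hAA i j]
    congr 1
    refine Finset.sum_congr rfl fun i _ => ?_
    rw [integral_finsetSum _ fun j _ => hAA i j]
  have e2 : ∫ ω, (((n : ℝ) - 1) * ∑ i, (|P ω - A i ω| + |Q ω - A i ω|)) ∂μ
      = ((n : ℝ) - 1) * ∑ i, (∫ ω, |P ω - A i ω| ∂μ + ∫ ω, |Q ω - A i ω| ∂μ) := by
    rw [integral_const_mul, integral_finsetSum _ fun i _ => hsum i]
    congr 1
    refine Finset.sum_congr rfl fun i _ => ?_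
    rw [integral_add (hPA i) (hQA i)]
  rw [e1, e2] at key
  exact key

theorem K2n_lower_gen (n : ℕ) (hn : 2 ≤ n) {X : Type} (d N : X → X → ℝ) (s t : X)
    (x : Fin n → X)
    (hst : d s t = 2) (hxx : ∀ i j, i ≠ j → d (x i) (x j) = 2) (hsx : ∀ i, d s (x i) = 1)
    (htx : ∀ i, d t (x i) = 1) (C : ℝ) (hN : ∀ a b, 0 ≤ N a b)
    (hf : ∀ a b, d a b ≤ N a b ∧ N a b ≤ C * d a b)
    (hp : ∑ i, ∑ j, N (x i) (x j) + (n : ℝ) * ((n : ℝ) - 2) / 2 * N s t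
      ≤ ((n : ℝ) - 1) * ∑ i, (N s (x i) + N t (x i))) :
    3 * (n : ℝ) ^ 2 - 4 * n ≤ 2 * n * ((n : ℝ) - 1) * C := by
  have hn' : (2 : ℝ) ≤ n := by exact_mod_cast hn
  have h1 : 2 * ((n : ℝ) - 1) * ∑ _i : Fin n, (1 : ℝ) ≤ ∑ i, ∑ j, N (x i) (x j) := by
    rw [← sum_offdiag n (fun _ => (1 : ℝ))]
    refine Finset.sum_le_sum fun i _ => Finset.sum_le_sum fun j _ => ?_
    by_cases hij : i = j
    · rw [if_pos hij]
      exact hN _ _
    · rw [if_neg hij]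
      have := (hf (x i) (x j)).1
      rw [hxx i j hij] at this
      linarith
  have h2 : (2 : ℝ) ≤ N s t := by
    have := (hf s t).1
    rwa [hst] at this
  have h3 : ∑ i, (N s (x i) + N t (x i)) ≤ ∑ _i : Fin n, (2 * C) := by
    refine Finset.sum_le_sum fun i _ => ?_
    have a1 := (hf s (x i)).2
    have a2 := (hf t (x i)).2
    rw [hsx i] at a1
    rw [htx i] at a2
    linarith
  simp only [Finset.sum_const, Finset.card_univ, Fintype.card_fin, nsmul_eq_mul, mul_one] at h1 h3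
  have h4 : (n : ℝ) * ((n : ℝ) - 2) / 2 * 2 ≤ (n : ℝ) * ((n : ℝ) - 2) / 2 * N s t :=
    mul_le_mul_of_nonneg_left h2 (by nlinarith)
  have h5 : ((n : ℝ) - 1) * ∑ i, (N s (x i) + N t (x i))
      ≤ ((n : ℝ) - 1) * ((n : ℝ) * (2 * C)) :=
    mul_le_mul_of_nonneg_left h3 (by linarith)
  nlinarith

end Vale.Agent.Lib.P235
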